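import Vale.Agent.Lib.P002.RMain
import Vale.Agent.Lib.P002.CMain

open Vale.Agent.Lib.P002

/-- Integral points on character varieties of curves, in every rank `r ≥ 2`. First part: closed
surfaces of genus `g ≥ 2`, over `ℤ`, on a nonempty open part of the representation variety
containing an irreducible representation. Second part: a curve of genus `g` minus `s + 1 ≥ 1` points
with `2 g + s + 1 ≥ 3`, with local monodromy in prescribed regular conjugacy classes whose
eigenvalues `l j i` are algebraic integers listed so that equal values are adjacent, over one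
number field `L`, on the part where the invariant flags are in general position. For simple and
generic eigenvalues this part is nonempty and consists of irreducible representations. -/
theorem Vale.Agent.Results.P002.AllCurves.result :
    (∀ g r : ℕ, 2 ≤ g → 2 ≤ r →
      ∃ U : Set (Gens g → SLC r), IsOpen U ∧ (∃ A ∈ U, IsSurfaceRep A ∧ IsIrredRep A) ∧
        ∀ (m : ℕ) (w : Fin m → FreeGroup (Gens g)) (P : MvPolynomial (Fin m) ℂ),
          (∀ A : Gens g → SLC r, IsSurfaceRep A → IsSSRep A → IsIntRep A → evalTrG w P A = 0) →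
          ∀ A ∈ U, IsSurfaceRep A → evalTrG w P A = 0) ∧
    (∀ (g s r : ℕ), (1 ≤ g ∨ 2 ≤ s) → 2 ≤ r → ∀ l : Fin (s + 1) → Fin r → ℂ,
      (∀ j i, IsIntegral ℤ (l j i)) → (∀ j, ∏ i, l j i = 1) →
      (∀ j a b c, a ≤ b → b ≤ c → l j a = l j c → l j b = l j a) →
      (((∀ j, Function.Injective (l j)) ∧
          ∀ (J : Fin (s + 1) → Finset (Fin r)) (m : ℕ), 0 < m → m < r →
            (∀ i, (J i).card = m) → ∏ i, ∏ j ∈ J i, l i j ≠ 1) →
        (YStar l : Set (PGens g s → SLr r)).Nonempty ∧
          ∀ A : PGens g s → SLr r, A ∈ YStar l → IsIrredP A) ∧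
      ∃ L : IntermediateField ℚ ℂ, FiniteDimensional ℚ L ∧ (∀ j i, l j i ∈ L) ∧
        ∀ (m : ℕ) (w : Fin m → FreeGroup (PGens g s)) (P : MvPolynomial (Fin m) ℂ),
          ((∀ A ∈ YStar l, IsOLTuple L A → evalTrP w P A = 0) →
            ∀ A ∈ YStar l, evalTrP w P A = 0) ∧
          ((∃ A : PGens g s → SLr r, A ∈ YStar l ∧ IsIrredP A) →
            (∀ A ∈ YStar l, IsIrredP A → IsOLTuple L A → evalTrP w P A = 0) →
            ∀ A ∈ YStar l, evalTrP w P A = 0)) := by
  refine ⟨fun g r hg hr => ?_, fun g s r hgs hr l hint hdet hadj =>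
    regular_thm hgs hr l hint hdet hadj⟩
  obtain ⟨n, rfl⟩ : ∃ n, g = n + 2 := ⟨g - 2, by omega⟩
  exact closed_main n r hr
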