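import Vale.Agent.Lib.P002.CMain

open Vale.Agent.Lib.P002

/-- Integral points on the character variety of a closed surface of genus `g ≥ 2`, in every rank
`r ≥ 2`, over `ℤ`: there is a nonempty open part `U` of the representation variety, in the
classical topology, containing an irreducible representation, such that every polynomial in the
traces of finitely many elements of the group which vanishes at all semisimple representations
with integral characteristic polynomials vanishes on that open part. -/
theorem Vale.Agent.Results.P002.ClosedSurface.result (g r : ℕ) (hg : 2 ≤ g) (hr : 2 ≤ r) :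
    ∃ U : Set (Gens g → SLC r), IsOpen U ∧ (∃ A ∈ U, IsSurfaceRep A ∧ IsIrredRep A) ∧
      ∀ (m : ℕ) (w : Fin m → FreeGroup (Gens g)) (P : MvPolynomial (Fin m) ℂ),
        (∀ A : Gens g → SLC r, IsSurfaceRep A → IsSSRep A → IsIntRep A → evalTrG w P A = 0) →
        ∀ A ∈ U, IsSurfaceRep A → evalTrG w P A = 0 := by
  obtain ⟨n, rfl⟩ : ∃ n, g = n + 2 := ⟨g - 2, by omega⟩
  exact closed_main n r hr
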