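import Vale.Agent.Lib.P002.Main

open Vale.Agent.Lib.P002

/-- Potential density of integral points on the part in general position of the character variety
of the line minus `K + 2 ≥ 3` points, for all ranks `r`, with prescribed generic regular semisimple
local monodromy with eigenvalues `l i j` (for instance roots of unity). -/
theorem Vale.Agent.Results.P002.PuncturedSphereRegular.result {K r : ℕ} (hK : 1 ≤ K) (hr : 2 ≤ r)
    (l : Fin (K + 2) → Fin r → ℂ)
    (hint : ∀ i j, IsIntegral ℤ (l i j))
    (hdet : ∀ i, ∏ j, l i j = 1)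
    (hreg : ∀ i, Function.Injective (l i))
    (hgen : ∀ (J : Fin (K + 2) → Finset (Fin r)) (m : ℕ), 0 < m → m < r →
      (∀ i, (J i).card = m) → ∏ i, ∏ j ∈ J i, l i j ≠ 1) :
    ∃ L : IntermediateField ℚ ℂ, FiniteDimensional ℚ L ∧ (∀ i j, l i j ∈ L) ∧
      (genericLocus l).Nonempty ∧
      ∀ (m : ℕ) (w : Fin m → FreeGroup (Fin (K + 2))) (P : MvPolynomial (Fin m) ℂ),
        (∀ A ∈ genericLocus l, IsIntegralPt L A → evalTr w P A = 0) →
        ∀ A ∈ genericLocus l, evalTr w P A = 0 :=
  main_exists (by omega) (by omega) l hint hreg hgen hdet
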