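import Vale.Agent.Lib.P002.RMain

open Vale.Agent.Lib.P002

/-- Potential density of integral points on the part in general position of the variety of
representations of the fundamental group of a curve of genus `g` minus `s + 1 ≥ 1` points, with
`2 g + s + 1 ≥ 3`, for all ranks `r`, with local monodromy in prescribed regular conjugacy classes
(one Jordan block for each eigenvalue). The eigenvalues are algebraic integers `l j i`, listed so
that equal values are adjacent. For simple and generic eigenvalues this part is nonempty and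
consists of irreducible representations. -/
theorem Vale.Agent.Results.P002.RegularBoundary.result {g s r : ℕ} (hgs : 1 ≤ g ∨ 2 ≤ s)
    (hr : 2 ≤ r) (l : Fin (s + 1) → Fin r → ℂ)
    (hint : ∀ j i, IsIntegral ℤ (l j i)) (hdet : ∀ j, ∏ i, l j i = 1)
    (hadj : ∀ j a b c, a ≤ b → b ≤ c → l j a = l j c → l j b = l j a) :
    (((∀ j, Function.Injective (l j)) ∧
        ∀ (J : Fin (s + 1) → Finset (Fin r)) (m : ℕ), 0 < m → m < r →
          (∀ i, (J i).card = m) → ∏ i, ∏ j ∈ J i, l i j ≠ 1) →
      (YStar l : Set (PGens g s → SLr r)).Nonempty ∧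
        ∀ A : PGens g s → SLr r, A ∈ YStar l → IsIrredP A) ∧
    ∃ L : IntermediateField ℚ ℂ, FiniteDimensional ℚ L ∧ (∀ j i, l j i ∈ L) ∧
      ∀ (m : ℕ) (w : Fin m → FreeGroup (PGens g s)) (P : MvPolynomial (Fin m) ℂ),
        ((∀ A ∈ YStar l, IsOLTuple L A → evalTrP w P A = 0) → ∀ A ∈ YStar l, evalTrP w P A = 0) ∧
        ((∃ A : PGens g s → SLr r, A ∈ YStar l ∧ IsIrredP A) →
          (∀ A ∈ YStar l, IsIrredP A → IsOLTuple L A → evalTrP w P A = 0) →
          ∀ A ∈ YStar l, evalTrP w P A = 0) :=
  regular_thm hgs hr l hint hdet hadj
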